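import Mathlib

/-!
# P120: the David-Semmes problem: definitions
-/

namespace Vale.Agent.P120

open MeasureTheory Metric Set

/-- `μ` is `n`-Ahlfors-David regular with constant `C`. -/
def ADRegular {d : ℕ} (n : ℕ) (μ : Measure (EuclideanSpace ℝ (Fin d))) (C : ℝ) : Prop :=
  1 ≤ C ∧ ∀ x ∈ μ.support, ∀ r : ℝ, 0 < r → ENNReal.ofReal r ≤ ediam μ.support →
    ENNReal.ofReal (C⁻¹ * r ^ n) ≤ μ (ball x r) ∧ μ (ball x r) ≤ ENNReal.ofReal (C * r ^ n)

/-- The `n`-dimensional Riesz kernel `K_n(z) = z / |z|^(n+1)`. -/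
noncomputable def rieszKernel {d : ℕ} (n : ℕ) (z : EuclideanSpace ℝ (Fin d)) :
    EuclideanSpace ℝ (Fin d) := (‖z‖ ^ (n + 1))⁻¹ • z

/-- The truncated Riesz transform `R_{μ,ε} f (x) = ∫_{|x-y|>ε} K_n(x-y) f(y) dμ(y)`. -/
noncomputable def rieszTrunc {d : ℕ} (n : ℕ) (μ : Measure (EuclideanSpace ℝ (Fin d))) (ε : ℝ)
    (f : EuclideanSpace ℝ (Fin d) → ℝ) (x : EuclideanSpace ℝ (Fin d)) :
    EuclideanSpace ℝ (Fin d) :=
  ∫ y in {y | ε < ‖x - y‖}, f y • rieszKernel n (x - y) ∂μ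

/-- The `n`-dimensional Riesz transform is bounded on `L^2(μ)`: the truncated integrals converge at
the points of the support and the truncations are bounded on `L^2(μ)` uniformly in `ε`. -/
def RieszBounded {d : ℕ} (n : ℕ) (μ : Measure (EuclideanSpace ℝ (Fin d))) : Prop :=
  ∃ C : ℝ, ∀ f : EuclideanSpace ℝ (Fin d) → ℝ, MemLp f 2 μ → ∀ ε : ℝ, 0 < ε →
    (∀ x ∈ μ.support, IntegrableOn (fun y => f y • rieszKernel n (x - y)) {y | ε < ‖x - y‖} μ) ∧
      eLpNorm (rieszTrunc n μ ε f) 2 μ ≤ ENNReal.ofReal C * eLpNorm f 2 μ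

/-- Uniform `n`-rectifiability (big pieces of Lipschitz images of `n`-dimensional balls). -/
def UniformlyRectifiable {d : ℕ} (n : ℕ) (μ : Measure (EuclideanSpace ℝ (Fin d))) : Prop :=
  ∃ θ : ℝ, 0 < θ ∧ ∃ M : NNReal, ∀ x ∈ μ.support, ∀ r : ℝ, 0 < r →
    ENNReal.ofReal r ≤ ediam μ.support →
      ∃ g : EuclideanSpace ℝ (Fin n) → EuclideanSpace ℝ (Fin d),
        LipschitzOnWith M g (ball 0 r) ∧ ENNReal.ofReal (θ * r ^ n) ≤ μ (ball x r ∩ g '' ball 0 r)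

/-- The David-Semmes statement Q1 for the pair `(n, d)`. -/
def DavidSemmes (n d : ℕ) : Prop :=
  ∀ μ : Measure (EuclideanSpace ℝ (Fin d)), IsLocallyFiniteMeasure μ →
    (∃ C, ADRegular n μ C) → RieszBounded n μ → UniformlyRectifiable n μ

end Vale.Agent.P120
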