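import Vale.Agent.P120.Defs

namespace Vale.Agent.P120

open MeasureTheory Metric Set

/-- zero padding as a linear isometry `ℝ^d → ℝ^(d+r)`. -/
noncomputable def emb (d r : ℕ) :
    EuclideanSpace ℝ (Fin d) →ₗᵢ[ℝ] EuclideanSpace ℝ (Fin (d + r)) where
  toFun v := WithLp.toLp 2 (Fin.addCases (fun k => v.ofLp k) (fun _ => 0))
  map_add' v w := by
    ext j
    refine Fin.addCases (fun k => ?_) (fun k => ?_) j <;> simp
  map_smul' c v := by
    ext j
    refine Fin.addCases (fun k => ?_) (fun k => ?_) j <;> simp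
  norm_map' v := by
    have h : ‖(WithLp.toLp 2 (Fin.addCases (fun k => v.ofLp k) (fun _ => 0)) :
        EuclideanSpace ℝ (Fin (d + r)))‖ ^ 2 = ‖v‖ ^ 2 := by
      rw [EuclideanSpace.real_norm_sq_eq, EuclideanSpace.real_norm_sq_eq, Fin.sum_univ_add]
      simp
    have h2 := (pow_left_inj₀ (norm_nonneg _) (norm_nonneg _) (two_ne_zero)).1 h
    exact h2

/-- the coordinate projection `ℝ^(d+r) → ℝ^d`. -/
noncomputable def proj (d r : ℕ) (w : EuclideanSpace ℝ (Fin (d + r))) : EuclideanSpace ℝ (Fin d) :=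
  WithLp.toLp 2 (fun k => w.ofLp (Fin.castAdd r k))

lemma proj_emb (d r : ℕ) (v : EuclideanSpace ℝ (Fin d)) : proj d r (emb d r v) = v := by
  ext k
  simp [proj, emb]

lemma proj_lipschitz (d r : ℕ) : LipschitzWith 1 (proj d r) := by
  refine LipschitzWith.of_dist_le_mul fun a b => ?_
  rw [NNReal.coe_one, one_mul, dist_eq_norm, dist_eq_norm]
  have h : ‖proj d r a - proj d r b‖ ^ 2 ≤ ‖a - b‖ ^ 2 := by
    rw [EuclideanSpace.real_norm_sq_eq, EuclideanSpace.real_norm_sq_eq, Fin.sum_univ_add]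
    have h1 : ∀ k : Fin d, (proj d r a - proj d r b).ofLp k ^ 2
        = (a - b).ofLp (Fin.castAdd r k) ^ 2 := by
      intro k; simp [proj]
    simp only [h1]
    have h2 : 0 ≤ ∑ i : Fin r, (a - b).ofLp (Fin.natAdd d i) ^ 2 :=
      Finset.sum_nonneg fun i _ => by positivity
    linarith
  exact (pow_le_pow_iff_left₀ (norm_nonneg _) (norm_nonneg _) two_ne_zero).1 h

lemma emb_isometry (d r : ℕ) : Isometry (emb d r) := (emb d r).isometry

lemma emb_measurableEmbedding (d r : ℕ) : MeasurableEmbedding (emb d r) :=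
  (emb_isometry d r).isClosedEmbedding.measurableEmbedding

lemma rieszKernel_emb (d r n : ℕ) (v : EuclideanSpace ℝ (Fin d)) :
    rieszKernel n (emb d r v) = emb d r (rieszKernel n v) := by
  unfold rieszKernel
  rw [(emb d r).norm_map, map_smul]

end Vale.Agent.P120
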