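import Vale.Agent.P120.Emb

namespace Vale.Agent.P120

open MeasureTheory Metric Set

variable {d : ℕ} (r : ℕ) (μ : Measure (EuclideanSpace ℝ (Fin d)))

/-- the push-forward measure on `ℝ^(d+r)`. -/
noncomputable def push : Measure (EuclideanSpace ℝ (Fin (d + r))) := μ.map (emb d r)

lemma push_apply (A : Set (EuclideanSpace ℝ (Fin (d + r)))) :
    push r μ A = μ (emb d r ⁻¹' A) := (emb_measurableEmbedding d r).map_apply μ A

lemma push_ball (x : EuclideanSpace ℝ (Fin d)) (s : ℝ) :
    push r μ (ball (emb d r x) s) = μ (ball x s) := by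
  rw [push_apply, (emb_isometry d r).preimage_ball]

lemma support_push : (push r μ).support = emb d r '' μ.support := by
  ext y
  rw [nhds_basis_ball.mem_measureSupport]
  constructor
  · intro h
    by_cases hy : y ∈ range (emb d r)
    · obtain ⟨x, rfl⟩ := hy
      refine ⟨x, ?_, rfl⟩
      rw [nhds_basis_ball.mem_measureSupport]
      intro s hs
      rw [← push_ball r μ]
      exact h s hs
    · exfalso
      have hcl : IsClosed (range (emb d r)) := (emb_isometry d r).isClosedEmbedding.isClosed_range
      have hopen : IsOpen (range (emb d r))ᶜ := hcl.isOpen_compl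
      obtain ⟨s, hs, hsub⟩ := Metric.isOpen_iff.1 hopen y hy
      have h1 := h s hs
      rw [push_apply] at h1
      have h2 : emb d r ⁻¹' ball y s = ∅ := by
        ext x
        simp only [mem_preimage, mem_empty_iff_false, iff_false]
        intro hx
        exact hsub hx ⟨x, rfl⟩
      rw [h2] at h1
      simp at h1
  · rintro ⟨x, hx, rfl⟩ s hs
    rw [push_ball]
    exact (nhds_basis_ball.mem_measureSupport.1 hx) s hs

lemma ediam_support_push : ediam (push r μ).support = ediam μ.support := by
  rw [support_push, (emb_isometry d r).ediam_image]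

lemma push_locallyFinite [IsLocallyFiniteMeasure μ] : IsLocallyFiniteMeasure (push r μ) := by
  refine ⟨fun y => ⟨ball y 1, ball_mem_nhds y one_pos, ?_⟩⟩
  rw [push_apply]
  refine lt_of_le_of_lt (measure_mono ?_) (measure_ball_lt_top (x := proj d r y) (r := 1))
  intro x hx
  rw [mem_preimage, mem_ball] at hx
  rw [mem_ball]
  have h := (proj_lipschitz d r).dist_le_mul (emb d r x) y
  rw [proj_emb, NNReal.coe_one, one_mul] at h
  exact lt_of_le_of_lt h hx

lemma adRegular_push {n : ℕ} {C : ℝ} (h : ADRegular n μ C) : ADRegular n (push r μ) C := by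
  refine ⟨h.1, ?_⟩
  intro y hy s hs hdiam
  rw [support_push] at hy
  obtain ⟨x, hx, rfl⟩ := hy
  rw [ediam_support_push] at hdiam
  rw [push_ball]
  exact h.2 x hx s hs hdiam

lemma preimage_trunc (x : EuclideanSpace ℝ (Fin d)) (ε : ℝ) :
    emb d r ⁻¹' {z | ε < ‖emb d r x - z‖} = {y | ε < ‖x - y‖} := by
  ext y
  simp only [mem_preimage, mem_ofPred_eq]
  rw [← map_sub, (emb d r).norm_map]

lemma rieszTrunc_push (n : ℕ) (ε : ℝ) (F : EuclideanSpace ℝ (Fin (d + r)) → ℝ)
    (x : EuclideanSpace ℝ (Fin d)) :
    rieszTrunc n (push r μ) ε F (emb d r x) = emb d r (rieszTrunc n μ ε (F ∘ emb d r) x) := by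
  unfold rieszTrunc push
  rw [(emb_measurableEmbedding d r).setIntegral_map, preimage_trunc,
    ← LinearIsometry.integral_comp_comm]
  refine integral_congr_ae (Filter.Eventually.of_forall fun y => ?_)
  simp only [Function.comp]
  rw [← map_sub, rieszKernel_emb, map_smul]

lemma rieszBounded_push {n : ℕ} (h : RieszBounded n μ) : RieszBounded n (push r μ) := by
  obtain ⟨C, hC⟩ := h
  refine ⟨C, fun F hF ε hε => ?_⟩
  have hme := emb_measurableEmbedding d r
  have hf : MemLp (F ∘ emb d r) 2 μ := hme.memLp_map_measure_iff.1 hF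
  obtain ⟨h1, h2⟩ := hC (F ∘ emb d r) hf ε hε
  constructor
  · intro y hy
    rw [support_push] at hy
    obtain ⟨x, hx, rfl⟩ := hy
    unfold push
    rw [hme.integrableOn_map_iff, preimage_trunc]
    have h3 := h1 x hx
    have h4 := (emb d r).toContinuousLinearMap.integrable_comp h3
    refine h4.congr (Filter.Eventually.of_forall fun y => ?_)
    simp only [Function.comp, LinearIsometry.coe_toContinuousLinearMap]
    rw [← map_sub, rieszKernel_emb, map_smul]
  · have e1 : eLpNorm (rieszTrunc n (push r μ) ε F) 2 (push r μ)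
        = eLpNorm (rieszTrunc n μ ε (F ∘ emb d r)) 2 μ := by
      unfold push
      rw [hme.eLpNorm_map_measure]
      refine eLpNorm_congr_norm_ae (Filter.Eventually.of_forall fun x => ?_)
      simp only [Function.comp]
      have := rieszTrunc_push r μ n ε F x
      unfold push at this
      rw [this, (emb d r).norm_map]
    have e2 : eLpNorm F 2 (push r μ) = eLpNorm (F ∘ emb d r) 2 μ := by
      unfold push
      rw [hme.eLpNorm_map_measure]
    rw [e1, e2]
    exact h2

lemma uniformlyRectifiable_of_push {n : ℕ} (h : UniformlyRectifiable n (push r μ)) :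
    UniformlyRectifiable n μ := by
  obtain ⟨θ, hθ, M, hM⟩ := h
  refine ⟨θ, hθ, M, fun x hx s hs hdiam => ?_⟩
  have hx' : emb d r x ∈ (push r μ).support := by
    rw [support_push]; exact ⟨x, hx, rfl⟩
  obtain ⟨g, hg, hmeas⟩ := hM (emb d r x) hx' s hs (by rw [ediam_support_push]; exact hdiam)
  refine ⟨proj d r ∘ g, ?_, ?_⟩
  · have := (proj_lipschitz d r).comp_lipschitzOnWith hg
    rwa [one_mul] at this
  · refine hmeas.trans ?_
    rw [push_apply]
    refine measure_mono ?_
    intro x' hx'
    rw [mem_preimage] at hx'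
    obtain ⟨hb, u, hu, hgu⟩ := hx'
    refine ⟨?_, u, hu, ?_⟩
    · have : x' ∈ emb d r ⁻¹' ball (emb d r x) s := hb
      rwa [(emb_isometry d r).preimage_ball] at this
    · simp only [Function.comp]
      rw [hgu, proj_emb]

theorem davidSemmes_mono (n d r : ℕ) (h : DavidSemmes n (d + r)) : DavidSemmes n d := by
  intro μ hμ hAD hR
  obtain ⟨C, hC⟩ := hAD
  exact uniformlyRectifiable_of_push r μ
    (h (push r μ) (push_locallyFinite r μ) ⟨C, adRegular_push r μ hC⟩ (rieszBounded_push r μ hR))

end Vale.Agent.P120
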